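import Mathlib
import Vale.Agent.P069.NotAUC
import Vale.Agent.P069.AMUC

/-! A separable reflexive Banach space whose norm is asymptotically midpoint uniformly convex
and which has no equivalent asymptotically uniformly convex norm. -/

namespace Vale.Agent.Results.P069.Counterexample

/-- the closed subspaces of finite codimension -/
def cof (X : Type) [NormedAddCommGroup X] [NormedSpace ℝ X] : Set (Submodule ℝ X) :=
  {F | IsClosed (F : Set X) ∧ FiniteDimensional ℝ (X ⧸ F)}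

/-- the modulus of asymptotic uniform convexity of `N`, computed in the extended reals -/
noncomputable def aucModulus {X : Type} [NormedAddCommGroup X] [NormedSpace ℝ X]
    (N : Seminorm ℝ X) (t : ℝ) : EReal :=
  ⨅ x ∈ {x : X | N x = 1}, ⨆ F ∈ cof X, ⨅ y ∈ {y : X | y ∈ F ∧ N y = 1},
    ((N (x + t • y) - 1 : ℝ) : EReal)

/-- the modulus of asymptotic midpoint uniform convexity of `N`, in the extended reals -/
noncomputable def amucModulus {X : Type} [NormedAddCommGroup X] [NormedSpace ℝ X]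
    (N : Seminorm ℝ X) (t : ℝ) : EReal :=
  ⨅ x ∈ {x : X | N x = 1}, ⨆ F ∈ cof X, ⨅ y ∈ {y : X | y ∈ F ∧ N y = 1},
    ((max (N (x + t • y)) (N (x - t • y)) - 1 : ℝ) : EReal)

/-- `N` is a norm equivalent to the given norm -/
def IsEquivalentNorm {X : Type} [NormedAddCommGroup X] [NormedSpace ℝ X]
    (N : Seminorm ℝ X) : Prop :=
  ∃ c C : ℝ, 0 < c ∧ 0 < C ∧ ∀ x, c * ‖x‖ ≤ N x ∧ N x ≤ C * ‖x‖

/-- asymptotically uniformly convex -/
def IsAUC {X : Type} [NormedAddCommGroup X] [NormedSpace ℝ X] (N : Seminorm ℝ X) : Prop :=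
  ∀ t : ℝ, 0 < t → 0 < aucModulus N t

/-- asymptotically midpoint uniformly convex -/
def IsAMUC {X : Type} [NormedAddCommGroup X] [NormedSpace ℝ X] (N : Seminorm ℝ X) : Prop :=
  ∀ t : ℝ, 0 < t → 0 < amucModulus N t

theorem result :
    ∃ (X : Type) (_ : NormedAddCommGroup X) (_ : NormedSpace ℝ X),
      CompleteSpace X ∧ ¬ FiniteDimensional ℝ X ∧ TopologicalSpace.SeparableSpace X ∧
      Function.Surjective (NormedSpace.inclusionInDoubleDual ℝ X) ∧
      (∀ t : ℝ, 0 < t →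
        ((t ^ 2 / (192 + 2 * t ^ 2) : ℝ) : EReal) ≤ amucModulus (normSeminorm ℝ X) t) ∧
      (∃ N : Seminorm ℝ X, IsEquivalentNorm N ∧ IsAMUC N) ∧
      ¬ ∃ N : Seminorm ℝ X, IsEquivalentNorm N ∧ IsAUC N := by
  have hmod : ∀ t : ℝ, 0 < t → ((t ^ 2 / (192 + 2 * t ^ 2) : ℝ) : EReal) ≤
      amucModulus (normSeminorm ℝ Vale.Agent.P069.X) t := by
    intro t ht
    refine le_iInf₂ fun x hx => ?_
    obtain ⟨F, h1, h2, h3⟩ := Vale.Agent.P069.amuc ht x hx
    refine le_iSup₂_of_le F ⟨h1, h2⟩ (le_iInf₂ fun y hy => ?_)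
    exact EReal.coe_le_coe_iff.2 (h3 y hy.1 hy.2)
  refine ⟨Vale.Agent.P069.X, inferInstance, inferInstance, inferInstance,
    Vale.Agent.P069.infinite_dim, Vale.Agent.P069.separable, Vale.Agent.P069.reflexive, hmod,
    ⟨normSeminorm ℝ _, ⟨1, 1, one_pos, one_pos, fun x => by simp⟩, fun t ht => ?_⟩, ?_⟩
  · refine lt_of_lt_of_le ?_ (hmod t ht)
    exact EReal.coe_pos.2 (by positivity)
  · rintro ⟨N, ⟨c, C, hc, hC, hN⟩, h⟩
    obtain ⟨δ, hδ0, hδ⟩ := EReal.lt_iff_exists_real_btwn.1 (h (c / (2 * C)) (by positivity))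
    refine Vale.Agent.P069.not_auc N hc hC (EReal.coe_pos.1 hδ0) hN fun x hx => ?_
    have h1 := lt_of_lt_of_le hδ (iInf₂_le x hx)
    obtain ⟨F, h2⟩ := lt_iSup_iff.1 h1
    obtain ⟨hF, h3⟩ := lt_iSup_iff.1 h2
    refine ⟨F, hF.1, hF.2, fun y hy hy1 => ?_⟩
    exact EReal.coe_lt_coe_iff.1 (lt_of_lt_of_le h3 (iInf₂_le y ⟨hy, hy1⟩))

end Vale.Agent.Results.P069.Counterexample
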